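import Vale.Agent.P030.T.ArRed

/-!
# P030, archimedean side, route H: the sum over the columns

`stAF_of_harm`: if there is a frame at `c3` with the radii `R i`, and a column `(g,k)` of the cusps
`c0, c1, c2` is at most `(C s)² exp ((k / h_g) (κ g - lam + ε))` on the combinations which are killed
by all columns of `c3` and by all columns `(g',k')` with `k' / h_g' < k / h_g`, or
`k' / h_g' = k / h_g` and `rk g' < rk g`, then
`StAF P c0 (4 D0² log 2 - (Σ h_g (κ g - lam) + Σ o_i² log R_i) / 2)`.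
-/

open Finset Matrix

namespace Vale.Agent.P030.H676

open Vale.Agent.P030.T

/-- an injective order compatible with a key on a finite set -/
theorem exists_order {α : Type} [Countable α] (S : Finset α) (key : α → ℕ) :
    ∃ τ : α → ℕ, Function.Injective τ ∧ ∀ c ∈ S, ∀ c' ∈ S, key c' < key c → τ c' < τ c := by
  classical
  obtain ⟨e, he⟩ := Countable.exists_injective_nat α
  set N := S.sup e + 1 with hN
  have hle : ∀ c ∈ S, e c < N := fun c hc => Nat.lt_succ_of_le (Finset.le_sup (f := e) hc)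
  set B := S.sup (fun c => key c * N + e c) + 1 with hB
  have hlB : ∀ c ∈ S, key c * N + e c < B := fun c hc =>
    Nat.lt_succ_of_le (Finset.le_sup (f := fun c => key c * N + e c) hc)
  refine ⟨fun c => if c ∈ S then key c * N + e c else B + e c, ?_, ?_⟩
  · intro a b hab
    by_cases ha : a ∈ S <;> by_cases hb : b ∈ S
    · simp only [ha, hb, if_true] at hab
      have h1 := hle a ha
      have h2 := hle b hb
      have h3 : (key a * N + e a) % N = (key b * N + e b) % N := by rw [hab]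
      rw [Nat.mul_comm, Nat.mul_add_mod, Nat.mul_comm (key b), Nat.mul_add_mod,
        Nat.mod_eq_of_lt h1, Nat.mod_eq_of_lt h2] at h3
      exact he h3
    · simp only [ha, hb, if_true, if_false] at hab
      have := hlB a ha
      omega
    · simp only [ha, hb, if_true, if_false] at hab
      have := hlB b hb
      omega
    · simp only [ha, hb, if_false] at hab
      exact he (by omega)
  · intro c hc c' hc' hlt
    simp only [hc, hc', if_true]
    have h1 := hle c' hc'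
    have h2 : (key c' + 1) * N ≤ key c * N := Nat.mul_le_mul_right _ hlt
    have h3 : (key c' + 1) * N = key c' * N + N := by ring
    omega

/-- heights of the frame rows: the first three rows are the groups of `c3` -/
def fr (P : Par) : Fin 8 → ℕ := ![P.ht .x2, P.ht .xl, P.ht .x1, 0, 0, 0, 0, 0]

/-- frame row of a `c3` group -/
def ixr : Gp → Fin 8
  | .x2 => 0
  | .xl => 1
  | .x1 => 2
  | _ => 3

/-- degree (per `s`) which is left to the frame row `i` -/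
def oo (P : Par) (i : Fin 8) : ℝ := (P.D0 : ℝ) - fr P i

theorem fr_ixr {P : Par} {g : Gp} (h : g.cusp = 3) : fr P (ixr g) = P.ht g := by
  revert h
  cases g <;> simp [Gp.cusp, fr, ixr]

theorem sum_c3 (F : Gp → ℝ) : ∑ g ∈ univ.filter (fun g : Gp => g.cusp = 3), F g
    = F .x2 + F .xl + F .x1 := by
  have : univ.filter (fun g : Gp => g.cusp = 3) = {Gp.x2, Gp.xl, Gp.x1} := by decide
  rw [this, Finset.sum_insert (by decide), Finset.sum_insert (by decide), Finset.sum_singleton]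
  ring

theorem sum_range_id (n : ℕ) : ∑ k ∈ range n, (k : ℝ) = (n : ℝ) * (n - 1) / 2 := by
  induction n with
  | zero => simp
  | succ n ih => rw [Finset.sum_range_succ, ih]; push_cast; ring

/-- the two sums which combine at `c3` -/
theorem c3_sum (D : ℝ) (L : ℝ) (n : ℕ) :
    ∑ k ∈ range n, (-(D - 1 - k) * L) = -((n : ℝ) * (D - 1) - n * (n - 1) / 2) * L := by
  have : ∀ k ∈ range n, (-(D - 1 - (k : ℝ)) * L) = (k : ℝ) * L - (D - 1) * L := fun k _ => by ring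
  rw [Finset.sum_congr rfl this, Finset.sum_sub_distrib, ← Finset.sum_mul, sum_range_id,
    Finset.sum_const, card_range, nsmul_eq_mul]
  ring

/-- the columns of `c3` together with the determinant of the frame -/
theorem c3_total (P : Par) (L : Fin 8 → ℝ) (s : ℕ) :
    (∑ g ∈ univ.filter (fun g : Gp => g.cusp = 3), ∑ k ∈ range (P.ht g * s),
        (-(((P.D0 * s : ℕ) : ℝ) - 1 - k) * L (ixr g)))
      + (((P.D0 * s : ℕ) : ℝ) * (((P.D0 * s : ℕ) : ℝ) - 1) / 2) * ∑ i, L i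
      = (∑ i, oo P i ^ 2 * L i) * ((s : ℝ) ^ 2 / 2) + (-(∑ i, oo P i * L i) / 2) * s := by
  have h2 : (∑ g ∈ univ.filter (fun g : Gp => g.cusp = 3), ∑ k ∈ range (P.ht g * s),
        (-(((P.D0 * s : ℕ) : ℝ) - 1 - k) * L (ixr g)))
      = ∑ i : Fin 8, -(((fr P i * s : ℕ) : ℝ) * (((P.D0 * s : ℕ) : ℝ) - 1)
      - ((fr P i * s : ℕ) : ℝ) * (((fr P i * s : ℕ) : ℝ) - 1) / 2) * L i := by
    rw [sum_c3]
    simp only [c3_sum]
    rw [Fin.sum_univ_eight]
    simp [fr, ixr]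
  rw [h2, Finset.mul_sum, ← Finset.sum_add_distrib, Finset.sum_mul, ← Finset.sum_neg_distrib,
    Finset.sum_div, Finset.sum_mul, ← Finset.sum_add_distrib]
  refine Finset.sum_congr rfl fun i _ => ?_
  unfold oo
  push_cast
  ring

/-- the columns of one group of `c0, c1, c2` -/
theorem group_sum_pos {h s : ℕ} (hh : 0 < h) {q t0 l c : ℝ} (ht0 : 0 ≤ t0)
    (hl : 0 ≤ l) (hc : 0 ≤ c)
    {β : ℕ → ℝ} (hβ : ∀ k < h * s, β k = if t0 * h ≤ (k : ℝ) ∧ k < h * s then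
      l + (k / h : ℝ) * q else c) :
    ∑ k ∈ range (h * s), β k ≤ h * s * l + q * h * (s : ℝ) ^ 2 / 2 + |q| * s / 2
      + (t0 * h + 1) * (c + t0 * |q|) := by
  classical
  have hh' : (0 : ℝ) < h := by exact_mod_cast hh
  have h1 : ∀ k ∈ range (h * s), β k ≤ (l + (k : ℝ) * (q / h))
      + if (k : ℝ) < t0 * h then (c + t0 * |q|) else 0 := by
    intro k hk
    have hk' := Finset.mem_range.1 hk
    rw [hβ k hk']
    by_cases hc : (k : ℝ) < t0 * h
    · rw [if_neg (fun hc' => absurd hc'.1 (not_le.2 hc)), if_pos hc]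
      have h2 : -(t0 * |q|) ≤ (k : ℝ) * (q / h) := by
        have h3 : |(k : ℝ) * (q / h)| ≤ t0 * |q| := by
          rw [abs_mul, abs_div, abs_of_pos hh', abs_of_nonneg (Nat.cast_nonneg k)]
          have h4 : (k : ℝ) / h ≤ t0 := by
            rw [div_le_iff₀ hh']; exact hc.le
          calc (k : ℝ) * (|q| / h) = (k / h) * |q| := by ring
            _ ≤ t0 * |q| := mul_le_mul_of_nonneg_right h4 (abs_nonneg _)
        exact (abs_le.1 h3).1
      linarith
    · rw [if_pos ⟨not_lt.1 hc, hk'⟩, if_neg hc, add_zero]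
      apply le_of_eq
      ring
  refine le_trans (Finset.sum_le_sum h1) ?_
  rw [Finset.sum_add_distrib, Finset.sum_add_distrib, ← Finset.sum_mul, sum_range_id,
    Finset.sum_const, card_range, nsmul_eq_mul, ← Finset.sum_filter, Finset.sum_const,
    nsmul_eq_mul]
  have h5 : (((range (h * s)).filter (fun k : ℕ => (k : ℝ) < t0 * h)).card : ℝ) ≤ t0 * h + 1 := by
    have h6 : (range (h * s)).filter (fun k : ℕ => (k : ℝ) < t0 * h) ⊆ range (⌈t0 * h⌉₊) := by
      intro k hk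
      exact Finset.mem_range.2 (Nat.lt_ceil.2 (Finset.mem_filter.1 hk).2)
    have h7 := Finset.card_le_card h6
    rw [card_range] at h7
    have h8 : ((⌈t0 * h⌉₊ : ℕ) : ℝ) < t0 * h + 1 := Nat.ceil_lt_add_one (by positivity)
    have h9 : (((range (h * s)).filter (fun k : ℕ => (k : ℝ) < t0 * h)).card : ℝ)
        ≤ ((⌈t0 * h⌉₊ : ℕ) : ℝ) := by exact_mod_cast h7
    linarith
  have h10 : (((h * s : ℕ) : ℝ) * (((h * s : ℕ) : ℝ) - 1) / 2) * (q / h)
      = q * h * (s : ℝ) ^ 2 / 2 - q * s / 2 := by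
    push_cast
    field_simp
  have h11 : 0 ≤ c + t0 * |q| := by positivity
  have h12 := mul_le_mul_of_nonneg_right h5 h11
  have h13 : -(q * s / 2) ≤ |q| * s / 2 := by
    have h14 : -q * (s : ℝ) ≤ |q| * s :=
      mul_le_mul_of_nonneg_right (neg_le_abs q) (Nat.cast_nonneg s)
    linarith
  rw [h10]
  push_cast
  nlinarith

theorem group_sum {h s : ℕ} {q t0 l c : ℝ} (ht0 : 0 ≤ t0)
    (hl : 0 ≤ l) (hc : 0 ≤ c)
    {β : ℕ → ℝ} (hβ : ∀ k < h * s, β k = if t0 * h ≤ (k : ℝ) ∧ k < h * s then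
      l + (k / h : ℝ) * q else c) :
    ∑ k ∈ range (h * s), β k ≤ h * s * l + q * h * (s : ℝ) ^ 2 / 2 + |q| * s / 2
      + (t0 * h + 1) * (c + t0 * |q|) := by
  rcases Nat.eq_zero_or_pos h with rfl | hh
  · have h1 : 0 ≤ |q| * s / 2 := by positivity
    have h2 : 0 ≤ c + t0 * |q| := by positivity
    simp only [Finset.range_zero, Finset.sum_empty, Nat.cast_zero, mul_zero, zero_mul,
      zero_div, zero_add, one_mul]
    linarith
  · exact group_sum_pos hh ht0 hl hc hβ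

/-- one group, in the shape which is summed -/
theorem group_arith {h s C t0 κ lam ε l S : ℝ} (hh : 0 ≤ h) (hs : 1 ≤ s) (ht0 : 0 ≤ t0)
    (hS : S ≤ h * s * l + (κ - lam + ε) * h * s ^ 2 / 2 + |κ - lam + ε| * s / 2
      + (t0 * h + 1) * (C * s + t0 * |κ - lam + ε|)) :
    S ≤ h * (s * l + ε * (s ^ 2 / 2)) + (h * (κ - lam)) * (s ^ 2 / 2)
      + (|κ - lam + ε| / 2 + (t0 * h + 1) * (C + t0 * |κ - lam + ε|)) * s := by
  have h1 : (t0 * h + 1) * (C * s + t0 * |κ - lam + ε|)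
      ≤ (t0 * h + 1) * ((C + t0 * |κ - lam + ε|) * s) := by
    refine mul_le_mul_of_nonneg_left ?_ (by positivity)
    have h2 : 0 ≤ t0 * |κ - lam + ε| := by positivity
    nlinarith
  refine hS.trans ?_
  refine (add_le_add_right h1 _).trans (le_of_eq ?_)
  ring

theorem sum_split (F : Gp → ℝ) : ∑ g, F g = ∑ g ∈ univ.filter (fun g : Gp => g.cusp = 3), F g
    + ∑ g ∈ univ.filter (fun g : Gp => ¬ g.cusp = 3), F g :=
  (Finset.sum_filter_add_sum_filter_not _ _ _).symm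

theorem sum_ht_le {P : Par} (hcard : ∑ g : Gp, P.ht g = 8 * P.D0) :
    ∑ g ∈ univ.filter (fun g : Gp => ¬ g.cusp = 3), (P.ht g : ℝ) ≤ 8 * P.D0 := by
  have h1 := sum_split (fun g => (P.ht g : ℝ))
  have h2 : ∑ g : Gp, (P.ht g : ℝ) = 8 * P.D0 := by exact_mod_cast hcard
  have h3 : 0 ≤ ∑ g ∈ univ.filter (fun g : Gp => g.cusp = 3), (P.ht g : ℝ) :=
    Finset.sum_nonneg fun _ _ => Nat.cast_nonneg _
  rw [h2] at h1
  linarith

/-- logarithms are small -/
theorem ev_log {C η : ℝ} (hC : 1 ≤ C) (hη : 0 < η) :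
    ∃ s0 : ℕ, ∀ s : ℕ, s0 ≤ s → Real.log (C * s) ≤ η * s := by
  have h1 : Filter.Tendsto (fun s : ℕ => (C * s : ℝ)) Filter.atTop Filter.atTop :=
    Filter.Tendsto.const_mul_atTop (by linarith) tendsto_natCast_atTop_atTop
  have h2 := (Real.isLittleO_log_id_atTop.comp_tendsto h1).def (c := η / C) (by positivity)
  obtain ⟨s0, hs0⟩ := Filter.eventually_atTop.1 h2
  refine ⟨s0, fun s hs => ?_⟩
  have h3 := hs0 s hs
  simp only [Function.comp, Real.norm_eq_abs, id] at h3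
  have h4 : |C * (s : ℝ)| = C * s := abs_of_nonneg (by positivity)
  rw [h4] at h3
  refine le_trans (le_abs_self _) (le_trans h3 (le_of_eq ?_))
  have : C ≠ 0 := by linarith
  field_simp

/-- the column bounds -/
noncomputable def bet (P : Par) (κ : Gp → ℝ) (L : Fin 8 → ℝ) (lam ε C t0 : ℝ) (s : ℕ) (c : Cl) : ℝ :=
  if c.1.cusp = 3 then -(((P.D0 * s : ℕ) : ℝ) - 1 - c.2) * L (ixr c.1)
    else if t0 * P.ht c.1 ≤ (c.2 : ℝ) ∧ c.2 < P.ht c.1 * s then
      2 * Real.log (C * s) + (c.2 / P.ht c.1 : ℝ) * (κ c.1 - lam + ε) else C * s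

theorem bet_three {P : Par} {κ : Gp → ℝ} {L : Fin 8 → ℝ} {lam ε C t0 : ℝ} {s : ℕ} {g : Gp}
    (h : g.cusp = 3) (k : ℕ) : bet P κ L lam ε C t0 s (g, k)
      = -(((P.D0 * s : ℕ) : ℝ) - 1 - k) * L (ixr g) := by
  unfold bet
  exact if_pos h

theorem bet_rest {P : Par} {κ : Gp → ℝ} {L : Fin 8 → ℝ} {lam ε C t0 : ℝ} {s : ℕ} {g : Gp}
    (h : ¬ g.cusp = 3) (k : ℕ) : bet P κ L lam ε C t0 s (g, k)
      = if t0 * P.ht g ≤ (k : ℝ) ∧ k < P.ht g * s then
      2 * Real.log (C * s) + (k / P.ht g : ℝ) * (κ g - lam + ε) else C * s := by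
  unfold bet
  exact if_neg h

/-- the time order -/
theorem exists_time (P : Par) (rk : Gp → ℕ) (c0 s : ℕ) :
    ∃ τ : Cl → ℕ, Function.Injective τ ∧
      (∀ g k g' k', ¬ g.cusp = 3 → k < P.ht g * s + c0 → g'.cusp = 3 → k' < P.ht g' * s + c0 →
        τ (g', k') < τ (g, k)) ∧
      (∀ g k g' k', ¬ g.cusp = 3 → ¬ g'.cusp = 3 → k < P.ht g * s →
        (k' * P.ht g < k * P.ht g' ∨ (k' * P.ht g = k * P.ht g' ∧ rk g' < rk g ∧ 0 < P.ht g')) →
        k' < P.ht g' * s ∧ τ (g', k') < τ (g, k)) := by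
  classical
  set hh : Gp → ℕ := fun g => if P.ht g = 0 then 1 else P.ht g with hhh
  have hhpos : ∀ g, 0 < hh g := fun g => by
    simp only [hhh]
    split_ifs with h
    · exact Nat.one_pos
    · exact Nat.pos_of_ne_zero h
  set H : ℕ := ∏ g, hh g with hH
  have hdvd : ∀ g, hh g ∣ H := fun g => Finset.dvd_prod_of_mem _ (mem_univ g)
  have hHpos : 0 < H := Finset.prod_pos fun g _ => hhpos g
  set M : ℕ := univ.sup rk + 1 with hM
  have hrk : ∀ g, rk g < M := fun g => Nat.lt_succ_of_le (Finset.le_sup (f := rk) (mem_univ g))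
  set key : Cl → ℕ := fun c =>
    if c.1.cusp = 3 then 0 else 1 + ((c.2 * (H / hh c.1)) * M + rk c.1) with hkey
  have hcount : Countable Gp := Finite.to_countable
  obtain ⟨τ, hτ, hord⟩ := exists_order (pool P c0 s) key
  refine ⟨τ, hτ, fun g k g' k' hg hk hg' hk' => ?_, fun g k g' k' hg hg' hk hlt' => ?_⟩
  · refine hord _ (mem_pool.2 hk) _ (mem_pool.2 hk') ?_
    simp only [hkey, hg', hg, if_true, if_false]
    omega
  · have hg1 : P.ht g ≠ 0 := fun h0 => by rw [h0, Nat.zero_mul] at hk; omega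
    have hg2 : P.ht g' ≠ 0 := by
      rcases hlt' with hlt' | ⟨_, _, h⟩
      · exact fun h0 => by rw [h0, Nat.mul_zero] at hlt'; omega
      · exact h.ne'
    have hle' : k' * P.ht g ≤ k * P.ht g' := by
      rcases hlt' with h | ⟨h, _, _⟩
      · exact h.le
      · exact h.le
    have hk' : k' < P.ht g' * s := by
      have h3 : k * P.ht g' < P.ht g * s * P.ht g' :=
        Nat.mul_lt_mul_of_pos_right hk (Nat.pos_of_ne_zero hg2)
      have h4 : k' * P.ht g < (P.ht g' * s) * P.ht g := by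
        calc k' * P.ht g ≤ k * P.ht g' := hle'
          _ < P.ht g * s * P.ht g' := h3
          _ = (P.ht g' * s) * P.ht g := by ring
      exact Nat.lt_of_mul_lt_mul_right h4
    refine ⟨hk', hord _ (mem_pool.2 (by simp only; omega)) _ (mem_pool.2 (by simp only; omega)) ?_⟩
    simp only [hkey, hg, hg', if_false]
    obtain ⟨m, hm⟩ := hdvd g
    obtain ⟨m', hm'⟩ := hdvd g'
    have f1 : hh g = P.ht g := if_neg hg1
    have f2 : hh g' = P.ht g' := if_neg hg2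
    have e1 : H / hh g = m := by rw [hm]; exact Nat.mul_div_cancel_left _ (hhpos g)
    have e2 : H / hh g' = m' := by rw [hm']; exact Nat.mul_div_cancel_left _ (hhpos g')
    rw [e1, e2]
    rw [f1] at hm
    rw [f2] at hm'
    have h5 : k * m * (P.ht g * P.ht g') = k * P.ht g' * H := by rw [hm]; ring
    have h6 : k' * m' * (P.ht g * P.ht g') = k' * P.ht g * H := by rw [hm']; ring
    have hpp : 0 < P.ht g * P.ht g' :=
      Nat.mul_pos (Nat.pos_of_ne_zero hg1) (Nat.pos_of_ne_zero hg2)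
    rcases hlt' with hlt' | ⟨heq, hrkk, _⟩
    · have h3 : k' * m' < k * m := by
        refine Nat.lt_of_mul_lt_mul_right (a := P.ht g * P.ht g') ?_
        rw [h5, h6]
        exact Nat.mul_lt_mul_of_pos_right hlt' hHpos
      have h7 : (k' * m' + 1) * M ≤ k * m * M := Nat.mul_le_mul_right _ h3
      have h8 : (k' * m' + 1) * M = k' * m' * M + M := by ring
      have h9 := hrk g'
      omega
    · have h3 : k' * m' = k * m := by
        refine Nat.eq_of_mul_eq_mul_right hpp ?_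
        rw [h5, h6, heq]
      rw [h3]
      omega

theorem ht_le {P : Par} (hcard : ∑ g : Gp, P.ht g = 8 * P.D0) (g : Gp) : P.ht g ≤ 8 * P.D0 := by
  rw [← hcard]; exact Finset.single_le_sum (f := P.ht) (fun _ _ => Nat.zero_le _) (mem_univ g)

/-- size of a column bound at `c3` -/
theorem size3 {D0 c0 k s h a L : ℝ} (hD : 0 ≤ D0) (hc0 : 0 ≤ c0) (hk : 0 ≤ k) (hs : 1 ≤ s)
    (hkh : k ≤ h * s + c0) (hh : h ≤ 8 * D0) (hL : |L| ≤ a) :
    |(-(D0 * s - 1 - k)) * L| ≤ ((9 * D0 + 1 + c0) * a) * s := by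
  have h1 : h * s ≤ 8 * D0 * s := mul_le_mul_of_nonneg_right hh (by linarith)
  have h2 : 0 ≤ D0 * s := by positivity
  have h3 : c0 ≤ c0 * s := le_mul_of_one_le_right hc0 hs
  have h4 : |-(D0 * s - 1 - k)| ≤ (9 * D0 + 1 + c0) * s := by
    rw [abs_le]
    constructor <;> nlinarith
  rw [abs_mul]
  calc |-(D0 * s - 1 - k)| * |L| ≤ ((9 * D0 + 1 + c0) * s) * a :=
        mul_le_mul h4 hL (abs_nonneg _) (by positivity)
    _ = _ := by ring

/-- size of the column bounds -/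
theorem bet_size {P : Par} {c0 : ℕ}
    {κ : Gp → ℝ} {L : Fin 8 → ℝ} {lam ε C t0 a b : ℝ} (hC : 1 ≤ C)
    (ha : 0 ≤ a) (hb : 0 ≤ b) (haL : ∀ i, |L i| ≤ a) (hbq : ∀ g, |κ g - lam + ε| ≤ b)
    {s : ℕ} (hs : 1 ≤ s) (g : Gp) (k : ℕ) (hle : P.ht g ≤ 8 * P.D0)
    (hc : k < P.ht g * s + c0) :
    |bet P κ L lam ε C t0 s (g, k)| ≤ ((9 * P.D0 + 1 + c0) * a + 2 * C + b) * s := by
  have hsR : (1 : ℝ) ≤ s := by exact_mod_cast hs
  have hCs : 0 < C * s := by positivity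
  have hlog0 : 0 ≤ Real.log (C * s) := Real.log_nonneg (by nlinarith)
  have hlogle : Real.log (C * s) ≤ C * s := (Real.log_le_sub_one_of_pos hCs).trans (by linarith)
  have hX : (0 : ℝ) ≤ ((9 * P.D0 + 1 + c0) * a) * s := by positivity
  have hB : (0 : ℝ) ≤ b * s := by positivity
  have hE : ((9 * (P.D0 : ℝ) + 1 + c0) * a + 2 * C + b) * s
      = ((9 * P.D0 + 1 + c0) * a) * s + 2 * (C * s) + b * s := by ring
  rw [hE]
  by_cases h1 : g.cusp = 3
  · rw [bet_three h1]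
    have h2 : ((P.D0 * s : ℕ) : ℝ) = (P.D0 : ℝ) * s := Nat.cast_mul _ _
    have h3 : (k : ℝ) ≤ (P.ht g : ℝ) * s + c0 := by exact_mod_cast hc.le
    have h4 : (P.ht g : ℝ) ≤ 8 * (P.D0 : ℝ) := by exact_mod_cast hle
    rw [h2]
    have h5 := size3 (Nat.cast_nonneg P.D0) (Nat.cast_nonneg c0) (Nat.cast_nonneg k) hsR h3 h4
      (haL (ixr g))
    linarith
  · rw [bet_rest h1]
    by_cases h2 : t0 * P.ht g ≤ (k : ℝ) ∧ k < P.ht g * s
    · rw [if_pos h2]
      have hhR : (0 : ℝ) < P.ht g := by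
        have : 0 < P.ht g := Nat.pos_of_ne_zero fun h0 => by
          have := h2.2
          rw [h0, Nat.zero_mul] at this
          omega
        exact_mod_cast this
      have h3 : |(k / P.ht g : ℝ) * (κ g - lam + ε)| ≤ s * b := by
        rw [abs_mul]
        refine mul_le_mul ?_ (hbq g) (abs_nonneg _) (by linarith)
        rw [abs_of_nonneg (by positivity), div_le_iff₀ hhR]
        have : (k : ℝ) ≤ P.ht g * s := by exact_mod_cast h2.2.le
        linarith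
      have h4 := abs_add_le (2 * Real.log (C * s)) ((k / P.ht g : ℝ) * (κ g - lam + ε))
      rw [abs_of_nonneg (by linarith : 0 ≤ 2 * Real.log (C * s))] at h4
      linarith
    · rw [if_neg h2, abs_of_pos hCs]
      linarith

/-- the sum of the bounds over `c0, c1, c2` -/
theorem rest_sum {P : Par} (κ : Gp → ℝ) (L : Fin 8 → ℝ) (lam ε C t0 : ℝ) (hC : 1 ≤ C)
    (ht0 : 0 ≤ t0) : ∃ K : ℝ, ∀ s : ℕ, 1 ≤ s →
    ∑ g ∈ univ.filter (fun g : Gp => ¬ g.cusp = 3), ∑ k ∈ range (P.ht g * s),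
        bet P κ L lam ε C t0 s (g, k)
      ≤ (∑ g ∈ univ.filter (fun g : Gp => ¬ g.cusp = 3), (P.ht g : ℝ))
            * (s * (2 * Real.log (C * s)) + ε * ((s : ℝ) ^ 2 / 2))
          + (∑ g ∈ univ.filter (fun g : Gp => ¬ g.cusp = 3), P.ht g * (κ g - lam))
            * ((s : ℝ) ^ 2 / 2)
          + K * s := by
  refine ⟨∑ g ∈ univ.filter (fun g : Gp => ¬ g.cusp = 3),
    (|κ g - lam + ε| / 2 + (t0 * P.ht g + 1) * (C + t0 * |κ g - lam + ε|)), fun s hs => ?_⟩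
  have hsR : (1 : ℝ) ≤ s := by exact_mod_cast hs
  have hCs : 0 ≤ C * s := by positivity
  have hlog0 : 0 ≤ Real.log (C * s) := Real.log_nonneg (by nlinarith)
  have h0 : ∀ g ∈ univ.filter (fun g : Gp => ¬ g.cusp = 3),
      ∑ k ∈ range (P.ht g * s), bet P κ L lam ε C t0 s (g, k)
        ≤ (P.ht g : ℝ) * (s * (2 * Real.log (C * s)) + ε * ((s : ℝ) ^ 2 / 2))
          + (P.ht g * (κ g - lam)) * ((s : ℝ) ^ 2 / 2)
          + (|κ g - lam + ε| / 2 + (t0 * P.ht g + 1) * (C + t0 * |κ g - lam + ε|)) * s := by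
    intro g hg
    refine group_arith (Nat.cast_nonneg _) hsR ht0 ?_
    exact group_sum ht0 (by linarith) hCs fun k _ => bet_rest (Finset.mem_filter.1 hg).2 k
  refine (Finset.sum_le_sum h0).trans (le_of_eq ?_)
  rw [Finset.sum_add_distrib, Finset.sum_add_distrib, ← Finset.sum_mul, ← Finset.sum_mul,
    ← Finset.sum_mul]

/-- the arithmetic of the final inequality -/
theorem total_arith {S3 Sr Fr ε C D lg2 s lg O Q Q3 K1 K2 : ℝ}
    (hrest : Sr ≤ O * (s * (2 * lg) + ε * (s ^ 2 / 2)) + Q * (s ^ 2 / 2) + K1 * s)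
    (hc3 : S3 + Fr = Q3 * (s ^ 2 / 2) + K2 * s) :
    S3 + Sr - (-Fr + 4 * (D * s) * (D * s - 1) * lg2 - C * (D * s))
      ≤ -(4 * D ^ 2 * lg2 - (Q + Q3) / 2) * s ^ 2 + O * (s * (2 * lg)) + ε * O * (s ^ 2 / 2)
        + (K1 + K2 + C * D + 4 * D * lg2) * s := by
  have h1 : O * (s * (2 * lg) + ε * (s ^ 2 / 2)) + Q * (s ^ 2 / 2) + K1 * s
      + (Q3 * (s ^ 2 / 2) + K2 * s) - (4 * (D * s) * (D * s - 1) * lg2 - C * (D * s))
      = -(4 * D ^ 2 * lg2 - (Q + Q3) / 2) * s ^ 2 + O * (s * (2 * lg)) + ε * O * (s ^ 2 / 2)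
        + (K1 + K2 + C * D + 4 * D * lg2) * s := by ring
  linarith

/-- the final inequality -/
theorem total_le {P : Par} (κ : Gp → ℝ) (L : Fin 8 → ℝ)
    (lam ε C t0 : ℝ) (hC : 1 ≤ C) (ht0 : 0 ≤ t0) : ∃ K : ℝ, ∀ s : ℕ, 1 ≤ s →
    ∑ g : Gp, ∑ k ∈ range (P.ht g * s), bet P κ L lam ε C t0 s (g, k)
      - (-(((P.D0 * s : ℕ) : ℝ) * (((P.D0 * s : ℕ) : ℝ) - 1) / 2) * (∑ i, L i)
          + 4 * ((P.D0 * s : ℕ) : ℝ) * (((P.D0 * s : ℕ) : ℝ) - 1) * Real.log 2
          - C * ((P.D0 * s : ℕ) : ℝ))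
      ≤ -(4 * (P.D0 : ℝ) ^ 2 * Real.log 2
        - (∑ g ∈ univ.filter (fun g : Gp => ¬ g.cusp = 3), P.ht g * (κ g - lam)
          + ∑ i, oo P i ^ 2 * L i) / 2) * (s : ℝ) ^ 2
        + (∑ g ∈ univ.filter (fun g : Gp => ¬ g.cusp = 3), (P.ht g : ℝ))
          * (s * (2 * Real.log (C * s)))
        + ε * (∑ g ∈ univ.filter (fun g : Gp => ¬ g.cusp = 3), (P.ht g : ℝ)) * ((s : ℝ) ^ 2 / 2)
        + K * s := by
  obtain ⟨K1, h1⟩ := rest_sum (P := P) κ L lam ε C t0 hC ht0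
  refine ⟨K1 + (-(∑ i, oo P i * L i) / 2) + C * P.D0 + 4 * P.D0 * Real.log 2, fun s hs => ?_⟩
  have hS3 : ∑ g ∈ univ.filter (fun g : Gp => g.cusp = 3), ∑ k ∈ range (P.ht g * s),
      bet P κ L lam ε C t0 s (g, k)
      = ∑ g ∈ univ.filter (fun g : Gp => g.cusp = 3), ∑ k ∈ range (P.ht g * s),
      (-(((P.D0 * s : ℕ) : ℝ) - 1 - k) * L (ixr g)) := by
    refine Finset.sum_congr rfl fun g hg => Finset.sum_congr rfl fun k _ => ?_
    exact bet_three (Finset.mem_filter.1 hg).2 k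
  have hc3t := c3_total P L s
  rw [← hS3] at hc3t
  have h3 := total_arith (C := C) (D := (P.D0 : ℝ)) (lg2 := Real.log 2) (h1 s hs) hc3t
  rw [sum_split (fun g => ∑ k ∈ range (P.ht g * s), bet P κ L lam ε C t0 s (g, k))]
  rw [Nat.cast_mul, ← neg_mul] at h3
  rw [Nat.cast_mul]
  exact h3

/-- the choice of the small constants -/
theorem eps_arith {O D s lgs ε' K : ℝ} (hε' : 0 < ε') (hD : 0 ≤ D) (hO : O ≤ 8 * D)
    (hs : 1 ≤ s) (hlg0 : 0 ≤ lgs) (hlg : lgs ≤ ε' / (64 * D + 4) * s) (hK : 4 * K ≤ ε' * s) :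
    O * (s * (2 * lgs)) + ε' / (16 * D + 4) * O * (s ^ 2 / 2) + K * s ≤ ε' * s ^ 2 := by
  have e4 : O * (s * (2 * lgs)) ≤ ε' / 4 * s ^ 2 := by
    have h1 : O * (s * (2 * lgs)) ≤ 8 * D * (s * (2 * lgs)) :=
      mul_le_mul_of_nonneg_right hO (by positivity)
    have h2 : 8 * D * (s * (2 * lgs)) ≤ 8 * D * (s * (2 * (ε' / (64 * D + 4) * s))) :=
      mul_le_mul_of_nonneg_left (mul_le_mul_of_nonneg_left
        (mul_le_mul_of_nonneg_left hlg (by norm_num)) (by positivity)) (by positivity)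
    have h5 : 16 * D * (ε' / (64 * D + 4)) ≤ ε' / 4 := by
      rw [← mul_div_assoc, div_le_iff₀ (by positivity)]
      nlinarith
    calc O * (s * (2 * lgs)) ≤ 8 * D * (s * (2 * (ε' / (64 * D + 4) * s))) := h1.trans h2
      _ = (16 * D * (ε' / (64 * D + 4))) * s ^ 2 := by ring
      _ ≤ ε' / 4 * s ^ 2 := mul_le_mul_of_nonneg_right h5 (by positivity)
  have e5 : ε' / (16 * D + 4) * O * (s ^ 2 / 2) ≤ ε' / 4 * s ^ 2 := by
    have h0 : ε' / (16 * D + 4) * O ≤ ε' / (16 * D + 4) * (8 * D) :=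
      mul_le_mul_of_nonneg_left hO (by positivity)
    have h1 : ε' / (16 * D + 4) * (8 * D) ≤ ε' / 2 := by
      rw [div_mul_eq_mul_div, div_le_iff₀ (by positivity)]
      nlinarith
    calc ε' / (16 * D + 4) * O * (s ^ 2 / 2) ≤ ε' / 2 * (s ^ 2 / 2) :=
          mul_le_mul_of_nonneg_right (h0.trans h1) (by positivity)
      _ = _ := by ring
  have e6 : K * s ≤ ε' / 4 * s ^ 2 := by
    have h1 : K ≤ ε' / 4 * s := by linarith
    calc K * s ≤ (ε' / 4 * s) * s := mul_le_mul_of_nonneg_right h1 (by linarith)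
      _ = _ := by ring
  have h9 : 0 ≤ ε' / 4 * s ^ 2 := by positivity
  linarith

/-- **the sum over the columns (route H)** -/
theorem stAF_of_harm {P : Par} {c0 : ℕ} (hcard : ∑ g : Gp, P.ht g = 8 * P.D0)
    (rk : Gp → ℕ) (κ : Gp → ℝ) (R : Fin 8 → ℝ) (lam : ℝ)
    (h : ∀ ε : ℝ, 0 < ε → ∃ (C t0 : ℝ) (s0 : ℕ), 1 ≤ C ∧ 0 ≤ t0 ∧ ∀ s, s0 ≤ s →
      ∃ W : Matrix (Fin (P.D0 * s) × Fin 8) (Fin (P.D0 * s) × Fin 8) ℂ,
        Real.exp (-(((P.D0 * s : ℕ) : ℝ) * (((P.D0 * s : ℕ) : ℝ) - 1) / 2)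
            * (∑ i, Real.log (R i))
          + 4 * ((P.D0 * s : ℕ) : ℝ) * (((P.D0 * s : ℕ) : ℝ) - 1) * Real.log 2
          - C * ((P.D0 * s : ℕ) : ℝ)) ≤ ‖W.det‖ ∧
        (∀ u : Fin (P.D0 * s) × Fin 8 → ℂ, (∀ i, ‖u i‖ ≤ 1) → ∀ (g : Gp) (k : ℕ), g.cusp = 3 →
          k < P.ht g * s + c0 → ‖val (P.D0 * s) (Gc / 2) (u ᵥ* W) (g, k)‖
            ≤ Real.exp (-(((P.D0 * s : ℕ) : ℝ) - 1 - k) * Real.log (R (ixr g)))) ∧
        (∀ u : Fin (P.D0 * s) × Fin 8 → ℂ, (∀ i, ‖u i‖ ≤ 1) → ∀ (g : Gp) (k : ℕ), ¬ g.cusp = 3 →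
          k < P.ht g * s + c0 → ‖val (P.D0 * s) (Gc / 2) (u ᵥ* W) (g, k)‖ ≤ Real.exp (C * s)) ∧
        (∀ u : Fin (P.D0 * s) × Fin 8 → ℂ, (∀ i, ‖u i‖ ≤ 1) → ∀ (g : Gp) (k : ℕ), ¬ g.cusp = 3 →
          t0 * P.ht g ≤ (k : ℝ) → k < P.ht g * s →
          (∀ (g' : Gp) (k' : ℕ), g'.cusp = 3 → k' < P.ht g' * s + c0 →
            val (P.D0 * s) (Gc / 2) (u ᵥ* W) (g', k') = 0) →
          (∀ (g' : Gp) (k' : ℕ), ¬ g'.cusp = 3 →
            (k' * P.ht g < k * P.ht g' ∨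
              (k' * P.ht g = k * P.ht g' ∧ rk g' < rk g ∧ 0 < P.ht g')) →
            val (P.D0 * s) (Gc / 2) (u ᵥ* W) (g', k') = 0) →
          ‖val (P.D0 * s) (Gc / 2) (u ᵥ* W) (g, k)‖
            ≤ (C * s) ^ 2 * Real.exp ((k / P.ht g : ℝ) * (κ g - lam + ε)))) :
    StAF P c0 (4 * (P.D0 : ℝ) ^ 2 * Real.log 2
      - (∑ g ∈ univ.filter (fun g : Gp => ¬ g.cusp = 3), P.ht g * (κ g - lam)
          + ∑ i, oo P i ^ 2 * Real.log (R i)) / 2) := by
  classical
  refine stAF_of_cols hcard fun ε' hε' => ?_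
  obtain ⟨C, t0, s0, hC, ht0, hW⟩ := h (ε' / (16 * P.D0 + 4)) (by clear hcard h; positivity)
  generalize hεε : ε' / (16 * (P.D0 : ℝ) + 4) = ε at hW
  set L : Fin 8 → ℝ := fun i => Real.log (R i) with hL
  obtain ⟨a, ha⟩ : ∃ a : ℝ, ∀ i, |L i| ≤ a :=
    ⟨∑ i, |L i|, fun i =>
      Finset.single_le_sum (f := fun i => |L i|) (fun _ _ => abs_nonneg _) (mem_univ i)⟩
  have ha0 : 0 ≤ a := (abs_nonneg _).trans (ha 0)
  obtain ⟨b, hb⟩ : ∃ b : ℝ, ∀ g, |κ g - lam + ε| ≤ b :=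
    ⟨∑ g, |κ g - lam + ε|, fun g =>
      Finset.single_le_sum (f := fun g => |κ g - lam + ε|) (fun _ _ => abs_nonneg _) (mem_univ g)⟩
  have hb0 : 0 ≤ b := (abs_nonneg _).trans (hb .z1)
  obtain ⟨K, hK⟩ := total_le (P := P) κ L lam ε C t0 hC ht0
  obtain ⟨s1, hs1⟩ := ev_log (C := C) (η := ε' / (64 * P.D0 + 4)) hC
    (by clear hcard h; positivity)
  obtain ⟨s2, hs2⟩ := exists_nat_ge (((9 * P.D0 + 1 + c0) * a + 2 * C + b) / ε')
  obtain ⟨s3, hs3⟩ := exists_nat_ge (4 * K / ε')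
  refine ⟨max (max s0 s1) (max s2 (max s3 1)), fun s hs => ?_⟩
  have hs0' : s0 ≤ s := le_trans (le_trans (le_max_left _ _) (le_max_left _ _)) hs
  have hs1' : s1 ≤ s := le_trans (le_trans (le_max_right _ _) (le_max_left _ _)) hs
  have hs2' : s2 ≤ s := le_trans (le_trans (le_max_left _ _) (le_max_right _ _)) hs
  have hs3' : s3 ≤ s :=
    le_trans (le_trans (le_trans (le_max_left _ _) (le_max_right _ _)) (le_max_right _ _)) hs
  have hs4' : 1 ≤ s :=
    le_trans (le_trans (le_trans (le_max_right _ _) (le_max_right _ _)) (le_max_right _ _)) hs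
  have hsR : (1 : ℝ) ≤ s := by exact_mod_cast hs4'
  have hlogs := hs1 s hs1'
  have hK1s : ((9 * P.D0 + 1 + c0) * a + 2 * C + b) ≤ ε' * s := by
    have h1 : (s2 : ℝ) ≤ s := by exact_mod_cast hs2'
    have h2 := hs2.trans h1
    rw [div_le_iff₀ hε'] at h2
    linarith
  have hK3s : 4 * K ≤ ε' * s := by
    have h1 : (s3 : ℝ) ≤ s := by exact_mod_cast hs3'
    have h2 := hs3.trans h1
    rw [div_le_iff₀ hε'] at h2
    linarith
  obtain ⟨W, hdet, hc3, htriv, hmain⟩ := hW s hs0'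
  obtain ⟨τ, hτ, hord1, hord2⟩ := exists_time P rk c0 s
  have hCs : 0 < C * s := mul_pos (by linarith) (by linarith)
  have hlog0 : 0 ≤ Real.log (C * s) := Real.log_nonneg (by nlinarith)
  refine ⟨τ, bet P κ L lam ε C t0 s, _, W, hτ, hdet, ?_, ?_, ?_⟩
  · rintro ⟨g, k⟩ hc
    refine (bet_size hC ha0 hb0 ha hb hs4' g k (ht_le hcard g) hc).trans ?_
    calc ((9 * P.D0 + 1 + c0) * a + 2 * C + b) * s ≤ ε' * s * s :=
          mul_le_mul_of_nonneg_right hK1s (by linarith)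
      _ = ε' * (s : ℝ) ^ 2 := by ring
  · refine (hK s hs4').trans ?_
    have h1 := eps_arith hε' (Nat.cast_nonneg P.D0) (sum_ht_le hcard) hsR hlog0 hlogs hK3s
    rw [hεε] at h1
    generalize (∑ g ∈ univ.filter (fun g : Gp => ¬ g.cusp = 3), (P.ht g : ℝ)) = O at h1 ⊢
    generalize (4 * (P.D0 : ℝ) ^ 2 * Real.log 2
      - (∑ g ∈ univ.filter (fun g : Gp => ¬ g.cusp = 3), P.ht g * (κ g - lam)
          + ∑ i, oo P i ^ 2 * L i) / 2) = A
    linarith
  · rintro ⟨g, k⟩ hc u hu hk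
    by_cases h1 : g.cusp = 3
    · rw [bet_three h1]
      exact hc3 u hu g k h1 hc
    · rw [bet_rest h1]
      by_cases h2 : t0 * P.ht g ≤ (k : ℝ) ∧ k < P.ht g * s
      · have h3 : Real.exp (2 * Real.log (C * s)) = (C * s) ^ 2 := by
          rw [two_mul, Real.exp_add, Real.exp_log hCs, sq]
        rw [if_pos h2, Real.exp_add, h3]
        refine hmain u hu g k h1 h2.1 h2.2 (fun g' k' hg' hk' => ?_) fun g' k' hg' hlt' => ?_
        · exact hk (g', k') hk' (hord1 g k g' k' h1 hc hg' hk')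
        · obtain ⟨h3, h4⟩ := hord2 g k g' k' h1 hg' h2.2 hlt'
          exact hk (g', k') (Nat.lt_of_lt_of_le h3 (Nat.le_add_right _ _)) h4
      · rw [if_neg h2]
        exact htriv u hu g k h1 hc

end Vale.Agent.P030.H676
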