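import Vale.Agent.P030.H676.HarmB
import Vale.Agent.P030.H352.Fam
import Vale.Agent.P030.H787.PGVec

/-!
# P030, archimedean side, route H: the reduction to a family of members

`FrameG G R` : the frame at `c3` with the rows `G` and the radii `R`.
`stAF_of_fam` : frame + family of members (`H352.Fam`) with positive margins give `StAF`.
-/

open Finset Matrix PowerSeries

namespace Vale.Agent.P030.H676

open Vale.Agent.P030.T Vale.Agent.P030.AR Vale.Agent.P030.H352 Vale.Agent.P030.H462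

/-- the frame at `c3` with the rows `G` and the outer radii `R` -/
def FrameG (G : Matrix (Fin 8) (Fin 8) ℂ⟦X⟧) (R : Fin 8 → ℝ) : Prop :=
  ∃ C1 : ℝ, 1 ≤ C1 ∧ ∀ D : ℕ, 0 < D → ∃ W : Matrix (Fin D × Fin 8) (Fin D × Fin 8) ℂ,
    Real.exp (-((D : ℝ) * (D - 1) / 2) * (∑ i, Real.log (R i))
      + 4 * (D : ℝ) * (D - 1) * Real.log 2 - C1 * D) ≤ ‖W.det‖ ∧
    ∀ u : Fin D × Fin 8 → ℂ, (∀ r, ‖u r‖ ≤ 1) →
      (∀ κ y, ‖y‖ = R κ → ‖sec D (u ᵥ* W) (outv G κ y) y‖ ≤ C1 * (D : ℝ) ^ 2) ∧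
      (∀ g : Gp, g.cusp = 3 → ∀ k < D, ‖val D (Gc / 2) (u ᵥ* W) (g, k)‖
        ≤ Real.exp (-((D : ℝ) - 1 - k) * Real.log (R (ixr g)))) ∧
      (∀ g : Gp, ¬ g.cusp = 3 → ∀ k, ‖val D (Gc / 2) (u ᵥ* W) (g, k)‖
        ≤ C1 * (D : ℝ) ^ 2 * C1 ^ k)

/-- the trivial bound is at most exponential -/
theorem triv_arith {C1 D0 s b : ℝ} {k : ℕ} (hC1 : 1 ≤ C1) (hD0 : 1 ≤ D0) (hs : 1 ≤ s)
    (hb : 0 ≤ b) (hk : (k : ℝ) ≤ 8 * D0 * s + b) :
    C1 * (D0 * s) ^ 2 * C1 ^ k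
      ≤ Real.exp ((Real.log C1 * (1 + 8 * D0 + b) + 2 * D0) * s) := by
  have hC0 : 0 < C1 := by linarith
  have hl : 0 ≤ Real.log C1 := Real.log_nonneg hC1
  have hDs : 0 < D0 * s := by positivity
  have h1 : C1 * (D0 * s) ^ 2 * C1 ^ k
      = Real.exp (Real.log C1 + 2 * Real.log (D0 * s) + k * Real.log C1) := by
    rw [Real.exp_add, Real.exp_add, Real.exp_log hC0, two_mul, Real.exp_add, Real.exp_log hDs,
      Real.exp_nat_mul, Real.exp_log hC0, sq]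
  rw [h1]
  refine Real.exp_le_exp.2 ?_
  have h2 : Real.log (D0 * s) ≤ D0 * s := (Real.log_le_sub_one_of_pos hDs).trans (by linarith)
  have h3 : (k : ℝ) * Real.log C1 ≤ (8 * D0 * s + b) * Real.log C1 :=
    mul_le_mul_of_nonneg_right hk hl
  have h4 : Real.log C1 ≤ Real.log C1 * s := le_mul_of_one_le_right hl hs
  have h5 : b * Real.log C1 ≤ b * Real.log C1 * s :=
    le_mul_of_one_le_right (mul_nonneg hb hl) hs
  nlinarith

theorem tl_yt_zero {c : Fin 4} (hc : ¬ c = 3) : tl c (yt c 0) = 0 := by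
  fin_cases c
  · simp [yt, tl]
  · simp [yt, tl]
  · simp [yt, tl]
  · exact absurd rfl hc

/-- **ROUTE H**: frame and family give the archimedean bound -/
theorem stAF_of_fam {P : Par} {c0 : ℕ} (hcard : ∑ g : Gp, P.ht g = 8 * P.D0) (hD0 : 0 < P.D0)
    (h3 : ∀ g : Gp, g.cusp = 3 → P.ht g < P.D0)
    {G : Matrix (Fin 8) (Fin 8) ℂ⟦X⟧} {R : Fin 8 → ℝ} (hG : FrameG G R)
    {A : Type} [Fintype A] (F : Fam A) {lam δ C : ℝ} (hδ : 0 < δ)
    (hF : F.Good P.ht G R lam δ C) (rk : Gp → ℕ) (gm : Gp → A)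
    (hgm : ∀ g : Gp, ¬ g.cusp = 3 → 0 < P.ht g → F.cu (gm g) = g.cusp ∧ F.hh (gm g) = P.ht g ∧
      F.cf (gm g) g ≠ 0 ∧ yt g.cusp 0 ∈ F.K (gm g) ∧
      ∀ g', g' ≠ g → F.cf (gm g) g' ≠ 0 → P.ht g < P.ht g' ∨ rk g' < rk g) :
    StAF P c0 (4 * (P.D0 : ℝ) ^ 2 * Real.log 2
      - (∑ g ∈ univ.filter (fun g : Gp => ¬ g.cusp = 3),
          P.ht g * (F.reg (gm g) (yt g.cusp 0) - lam)
          + ∑ i, oo P i ^ 2 * Real.log (R i)) / 2) := by
  classical
  obtain ⟨C1, hC1, hframe⟩ := hG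
  have hPG : ∀ g j, PG (Rat.castHom ℂ) (tup0 g j) ∧ PG (Rat.castHom ℂ) (tup1 g j) :=
    fun g j => ⟨H787.pg_tup0 g j, H787.pg_tup1 g j⟩
  -- a lower bound for the coefficients
  obtain ⟨m, hm, hmle⟩ : ∃ m : ℝ, 1 ≤ m ∧ ∀ g, F.cf (gm g) g ≠ 0 → ‖F.cf (gm g) g‖⁻¹ ≤ m := by
    refine ⟨1 + ∑ g, ‖F.cf (gm g) g‖⁻¹, ?_, fun g _ => ?_⟩
    · have : 0 ≤ ∑ g, ‖F.cf (gm g) g‖⁻¹ :=
        Finset.sum_nonneg fun _ _ => inv_nonneg.2 (norm_nonneg _)
      linarith
    · have := Finset.single_le_sum (f := fun g => ‖F.cf (gm g) g‖⁻¹)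
        (fun _ _ => inv_nonneg.2 (norm_nonneg _)) (mem_univ g)
      linarith
  -- the small columns
  obtain ⟨t0, ht0, hCt⟩ : ∃ t0 : ℝ, 0 < t0 ∧ ∀ τ, t0 ≤ τ → C * Real.exp (-(τ * δ)) < 1 := by
    refine ⟨|C| / δ + 1, by positivity, fun τ hτ => ?_⟩
    have h1 : |C| < τ * δ := by
      have h2 : (|C| / δ + 1) * δ ≤ τ * δ := mul_le_mul_of_nonneg_right hτ hδ.le
      have h3 : (|C| / δ + 1) * δ = |C| + δ := by field_simp
      linarith
    have h2 : C < Real.exp (τ * δ) :=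
      (le_abs_self C).trans_lt (h1.trans ((lt_add_one _).trans_le (Real.add_one_le_exp _)))
    rw [Real.exp_neg, ← div_eq_mul_inv, div_lt_one (Real.exp_pos _)]
    exact h2
  have hle8 := ht_le hcard
  refine stAF_of_harm hcard rk (fun g => F.reg (gm g) (yt g.cusp 0)) R lam fun ε hε => ?_
  clear hcard
  obtain ⟨Cc, hCc1, hCc2, hCc3⟩ : ∃ Cc : ℝ, C1 * m * P.D0 ≤ Cc ∧
      Real.log C1 * (1 + 8 * P.D0 + c0) + 2 * P.D0 ≤ Cc ∧ C1 ≤ Cc :=
    ⟨max (C1 * m * P.D0) (max (Real.log C1 * (1 + 8 * P.D0 + c0) + 2 * P.D0) C1),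
      le_max_left _ _, (le_max_left _ _).trans (le_max_right _ _),
      (le_max_right _ _).trans (le_max_right _ _)⟩
  have hCc : 1 ≤ Cc := hC1.trans hCc3
  refine ⟨Cc, t0, c0 + 1, hCc, ht0.le, fun s hs => ?_⟩
  have hs1 : 1 ≤ s := by omega
  have hsR : (1 : ℝ) ≤ s := by exact_mod_cast hs1
  have hD : 0 < P.D0 * s := Nat.mul_pos hD0 hs1
  have hD1 : (1 : ℝ) ≤ ((P.D0 * s : ℕ) : ℝ) := by exact_mod_cast hD
  have hD01 : (1 : ℝ) ≤ P.D0 := by exact_mod_cast hD0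
  obtain ⟨W, hW, hWu⟩ := hframe (P.D0 * s) hD
  refine ⟨W, le_trans (Real.exp_le_exp.2 ?_) hW, fun u hu g k hg hk => ?_,
    fun u hu g k hg hk => ?_, fun u hu g k hg hk0 hk _ hkill => ?_⟩
  · have := mul_le_mul_of_nonneg_right hCc3 (zero_le_one.trans hD1)
    linarith
  · refine (hWu u hu).2.1 g hg k ?_
    have h4 : P.ht g * s + s ≤ P.D0 * s := by
      calc P.ht g * s + s = (P.ht g + 1) * s := by ring
        _ ≤ P.D0 * s := Nat.mul_le_mul_right _ (h3 g hg)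
    omega
  · refine ((hWu u hu).2.2 g hg k).trans ?_
    have hk' : (k : ℝ) ≤ 8 * (P.D0 : ℝ) * s + c0 := by
      have h5 : k ≤ 8 * P.D0 * s + c0 :=
        hk.le.trans (Nat.add_le_add_right (Nat.mul_le_mul_right _ (hle8 g)) _)
      exact_mod_cast h5
    have h6 := triv_arith hC1 hD01 hsR (Nat.cast_nonneg c0) hk'
    rw [Nat.cast_mul]
    refine h6.trans (Real.exp_le_exp.2 ?_)
    exact mul_le_mul_of_nonneg_right hCc2 (zero_le_one.trans hsR)
  · -- the main columns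
    have hgpos : 0 < P.ht g := Nat.pos_of_ne_zero fun h0 => by
      rw [h0, Nat.zero_mul] at hk
      omega
    have hgR : (0 : ℝ) < P.ht g := by exact_mod_cast hgpos
    obtain ⟨e1, e2, e3, e4, e5⟩ := hgm g hg hgpos
    have hτ0 : t0 ≤ (k : ℝ) / P.ht g := (le_div_iff₀ hgR).2 hk0
    have hτpos : 0 < (k : ℝ) / P.ht g := ht0.trans_le hτ0
    have hkpos : 0 < k := by
      have : (0 : ℝ) < k := by
        have := mul_pos hτpos hgR
        rwa [div_mul_cancel₀ _ hgR.ne'] at this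
      exact_mod_cast this
    have hb := F.bound (D := P.D0 * s) (v := u ᵥ* W) (B0 := C1 * ((P.D0 * s : ℕ) : ℝ) ^ 2)
      (τ := (k : ℝ) / P.ht g) hF hPG (by positivity) hτpos.le (hCt _ hτ0)
      (hWu u hu).1 ?_ (gm g) (by rw [e1]; exact hg) (yt g.cusp 0) e4 ?_ k ?_
    · -- conclusion
      have hsum : ∑ g', F.cf (gm g) g' * Vale.Agent.P030.T.val (P.D0 * s) (Gc / 2) (u ᵥ* W) (g', k)
          = F.cf (gm g) g * Vale.Agent.P030.T.val (P.D0 * s) (Gc / 2) (u ᵥ* W) (g, k) := by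
        refine Finset.sum_eq_single g (fun g' _ hne => ?_) fun h => absurd (mem_univ g) h
        by_cases hcf : F.cf (gm g) g' = 0
        · rw [hcf, zero_mul]
        have h7 := hF.grp (gm g) (by rw [e1]; exact hg) g' hcf
        have hg' : ¬ g'.cusp = 3 := by rw [h7.1, e1]; exact hg
        have hle : P.ht g ≤ P.ht g' := by rw [← e2]; exact h7.2
        rw [hkill g' k hg' ?_, mul_zero]
        rcases hle.lt_or_eq with hlt | heq
        · exact Or.inl (Nat.mul_lt_mul_of_pos_left hlt hkpos)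
        · refine Or.inr ⟨by rw [heq], ?_, heq ▸ hgpos⟩
          rcases e5 g' hne hcf with h8 | h8
          · omega
          · exact h8
      rw [hsum, norm_mul] at hb
      have hcpos : 0 < ‖F.cf (gm g) g‖ := norm_pos_iff.2 e3
      have h8 : Real.exp (-((k : ℝ) / P.ht g * lam)) * Real.exp ((k : ℝ) / P.ht g
          * F.reg (gm g) (yt g.cusp 0))
          ≤ Real.exp ((k : ℝ) / P.ht g * (F.reg (gm g) (yt g.cusp 0) - lam + ε)) := by
        rw [← Real.exp_add]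
        refine Real.exp_le_exp.2 ?_
        have : 0 ≤ (k : ℝ) / P.ht g * ε := by positivity
        nlinarith
      have h9 : ‖Vale.Agent.P030.T.val (P.D0 * s) (Gc / 2) (u ᵥ* W) (g, k)‖
          ≤ ‖F.cf (gm g) g‖⁻¹ * (C1 * ((P.D0 * s : ℕ) : ℝ) ^ 2
            * (Real.exp (-((k : ℝ) / P.ht g * lam)) * Real.exp ((k : ℝ) / P.ht g
          * F.reg (gm g) (yt g.cusp 0)))) := by
        rw [inv_mul_eq_div, le_div_iff₀ hcpos, mul_comm]
        refine hb.trans (le_of_eq ?_)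
        ring
      refine h9.trans ?_
      have h10 : C1 * m * ((P.D0 * s : ℕ) : ℝ) ^ 2 ≤ (Cc * s) ^ 2 := by
        have h11 : C1 * m ≤ (C1 * m) ^ 2 := by
          have : 1 ≤ C1 * m := one_le_mul_of_one_le_of_one_le hC1 hm
          nlinarith
        have h12 : C1 * m * ((P.D0 * s : ℕ) : ℝ) ^ 2 ≤ ((C1 * m * P.D0) * s) ^ 2 := by
          push_cast
          calc C1 * m * ((P.D0 : ℝ) * s) ^ 2 ≤ (C1 * m) ^ 2 * ((P.D0 : ℝ) * s) ^ 2 :=
                mul_le_mul_of_nonneg_right h11 (by positivity)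
            _ = _ := by ring
        refine h12.trans (pow_le_pow_left₀ ?_ (mul_le_mul_of_nonneg_right hCc1 ?_) 2)
        · have : 0 ≤ C1 * m * P.D0 := by positivity
          positivity
        · linarith
      calc ‖F.cf (gm g) g‖⁻¹ * (C1 * ((P.D0 * s : ℕ) : ℝ) ^ 2
            * (Real.exp (-((k : ℝ) / P.ht g * lam)) * Real.exp ((k : ℝ) / P.ht g
          * F.reg (gm g) (yt g.cusp 0))))
          ≤ m * (C1 * ((P.D0 * s : ℕ) : ℝ) ^ 2
            * Real.exp ((k : ℝ) / P.ht g * (F.reg (gm g) (yt g.cusp 0) - lam + ε))) := by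
            refine mul_le_mul (hmle g e3) ?_ (by positivity) (by linarith)
            exact mul_le_mul_of_nonneg_left h8 (by positivity)
        _ = (C1 * m * ((P.D0 * s : ℕ) : ℝ) ^ 2)
            * Real.exp ((k : ℝ) / P.ht g * (F.reg (gm g) (yt g.cusp 0) - lam + ε)) := by ring
        _ ≤ _ := mul_le_mul_of_nonneg_right h10 (Real.exp_nonneg _)
    · -- the killed columns
      intro g' hg' k' hk'
      refine hkill g' k' hg' (Or.inl ?_)
      have h7 : (k' : ℝ) * P.ht g < k * P.ht g' := by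
        have h8 : (k : ℝ) / P.ht g * P.ht g' = (k * P.ht g') / P.ht g := by ring
        rw [h8, lt_div_iff₀ hgR] at hk'
        exact hk'
      exact_mod_cast h7
    · rw [e1]
      exact tl_yt_zero hg
    · rw [e2, div_mul_cancel₀ _ hgR.ne']

end Vale.Agent.P030.H676
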