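import Mathlib.LinearAlgebra.Vandermonde
import Mathlib.LinearAlgebra.Matrix.Block
import Mathlib.RingTheory.PowerSeries.Basic
import Mathlib.Analysis.Complex.Basic
import Mathlib.Tactic

/-!
# Archimedean bound for determinants of Taylor coefficients: nodes and triangular functionals

Rows `(b, k)`, `k < D b` : `x^k y^(D b - 1 - k) f b`; columns `(g, o)`, `o < n g` : the coefficient of
`z^o` in the chart `g`.  For every choice of nodes `a b j` and of power series `H (g, o)`:
the determinant is bounded by `K! ∏ c / (∏ |V(a b)| ∏ |H(0)|)` if the coefficients of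
`H (g,o) * ∏_{l ≠ j} (x - a_l y) * f b` are bounded by `c (g, o)`.
-/

open Matrix Finset PowerSeries

noncomputable section

namespace Vale.Agent.P030.H676

variable {R : Type*} [CommRing R]

/-- block diagonal determinant -/
theorem det_bd {β : Type*} [Fintype β] [LinearOrder β] {D : β → ℕ}
    (T : ∀ b, Matrix (Fin (D b)) (Fin (D b)) R) :
    (Matrix.blockDiagonal' T).det = ∏ b, (T b).det := by
  rw [(blockTriangular_blockDiagonal' T).det_fintype]
  refine Finset.prod_congr rfl fun k _ => ?_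
  let e : Fin (D k) ≃ {a : Σ b, Fin (D b) // a.1 = k} :=
    { toFun := fun i => ⟨⟨k, i⟩, rfl⟩
      invFun := fun a => a.2 ▸ a.1.2
      left_inv := fun i => rfl
      right_inv := by rintro ⟨⟨b, i⟩, rfl⟩; rfl }
  rw [← Matrix.det_submatrix_equiv_self e]
  congr 1
  ext i j
  simp [toSquareBlock_def, e]

/-- product of all `X - a_l`, `l ≠ j` -/
def nodeP {D : ℕ} (a : Fin D → R) (j : Fin D) : Polynomial R :=
  ∏ l ∈ univ.erase j, (Polynomial.X - Polynomial.C (a l))

/-- coefficient matrix of the node basis -/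
def nodeT {D : ℕ} (a : Fin D → R) : Matrix (Fin D) (Fin D) R :=
  Matrix.of fun j k => (nodeP a j).coeff k

theorem natDegree_prod_le {ι : Type*} (s : Finset ι) (a : ι → R) :
    (∏ l ∈ s, (Polynomial.X - Polynomial.C (a l))).natDegree ≤ s.card := by
  refine (Polynomial.natDegree_prod_le _ _).trans ?_
  refine (Finset.sum_le_card_nsmul s _ 1 fun l _ => ?_).trans (by simp)
  exact Polynomial.natDegree_X_sub_C_le _

theorem hom_step {A : Type*} [CommRing A] [Algebra R A] (P : Polynomial R) (m : ℕ)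
    (h : P.natDegree ≤ m) (c : R) (x y : A) :
    (x - algebraMap R A c * y)
        * ∑ k ∈ range (m + 1), algebraMap R A (P.coeff k) * (x ^ k * y ^ (m - k))
      = ∑ k ∈ range (m + 1 + 1),
          algebraMap R A (((Polynomial.X - Polynomial.C c) * P).coeff k)
            * (x ^ k * y ^ (m + 1 - k)) := by
  have h0 : P.coeff (m + 1) = 0 :=
    Polynomial.coeff_eq_zero_of_natDegree_lt (by omega)
  have e1 : ∑ k ∈ range (m + 1 + 1), algebraMap R A ((Polynomial.X * P).coeff k)
      * (x ^ k * y ^ (m + 1 - k))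
      = x * ∑ k ∈ range (m + 1), algebraMap R A (P.coeff k) * (x ^ k * y ^ (m - k)) := by
    rw [Finset.sum_range_succ' _ (m + 1), Polynomial.coeff_X_mul_zero, map_zero, zero_mul,
      add_zero, Finset.mul_sum]
    refine Finset.sum_congr rfl fun k hk => ?_
    rw [Polynomial.coeff_X_mul, Nat.add_sub_add_right]
    ring
  have e2 : ∑ k ∈ range (m + 1 + 1), algebraMap R A (c * P.coeff k)
      * (x ^ k * y ^ (m + 1 - k))
      = (algebraMap R A c * y)
        * ∑ k ∈ range (m + 1), algebraMap R A (P.coeff k) * (x ^ k * y ^ (m - k)) := by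
    rw [Finset.sum_range_succ _ (m + 1), h0, mul_zero, map_zero, zero_mul, add_zero,
      Finset.mul_sum]
    refine Finset.sum_congr rfl fun k hk => ?_
    rw [mem_range] at hk
    rw [map_mul, show m + 1 - k = (m - k) + 1 by omega, pow_succ]
    ring
  rw [sub_mul, ← e1, ← e2, ← Finset.sum_sub_distrib]
  refine Finset.sum_congr rfl fun k _ => ?_
  rw [sub_mul, Polynomial.coeff_sub, Polynomial.coeff_C_mul, map_sub, sub_mul]

/-- homogeneous expansion -/
theorem prod_hom {ι A : Type*} [CommRing A] [Algebra R A] (s : Finset ι) (a : ι → R) (x y : A) :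
    ∏ l ∈ s, (x - algebraMap R A (a l) * y)
      = ∑ k ∈ range (s.card + 1),
          algebraMap R A ((∏ l ∈ s, (Polynomial.X - Polynomial.C (a l))).coeff k)
            * (x ^ k * y ^ (s.card - k)) := by
  classical
  induction s using Finset.induction_on with
  | empty => simp
  | insert c s hc ih =>
    rw [prod_insert hc, ih, hom_step _ _ (natDegree_prod_le s a), card_insert_of_notMem hc,
      prod_insert hc]

theorem nodeT_mul {D : ℕ} (a : Fin D → R) :
    nodeT a * (Matrix.vandermonde a)ᵀ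
      = Matrix.diagonal fun j => ∏ l ∈ univ.erase j, (a j - a l) := by
  ext j l
  have h1 := prod_hom (A := R) (univ.erase j) a (a l) 1
  simp only [Algebra.algebraMap_self, RingHom.id_apply, mul_one, one_pow] at h1
  have hc : (univ.erase j : Finset (Fin D)).card + 1 = D := by
    rw [card_erase_of_mem (mem_univ _), card_univ, Fintype.card_fin]
    have := j.pos; omega
  rw [hc] at h1
  have h2 : (nodeT a * (Matrix.vandermonde a)ᵀ) j l = ∏ l' ∈ univ.erase j, (a l - a l') := by
    rw [h1, Finset.sum_range, Matrix.mul_apply]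
    refine Finset.sum_congr rfl fun k _ => ?_
    rw [transpose_apply, vandermonde_apply]
    rfl
  rw [h2]
  by_cases hjl : j = l
  · subst hjl; simp
  · rw [diagonal_apply_ne _ hjl]
    exact Finset.prod_eq_zero (mem_erase.2 ⟨fun h => hjl h.symm, mem_univ l⟩) (sub_self _)

theorem det_nodeT {D : ℕ} (a : Fin D → R) :
    (nodeT a).det * (Matrix.vandermonde a).det = ∏ j, ∏ l ∈ univ.erase j, (a j - a l) := by
  have h := congrArg Matrix.det (nodeT_mul a)
  rwa [det_mul, det_transpose, det_diagonal] at h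

theorem prod_pairs {D : ℕ} (w : Fin D → Fin D → ℝ) (hw : ∀ i j, w i j = w j i) :
    ∏ j, ∏ l ∈ univ.erase j, w j l = (∏ i, ∏ j ∈ Ioi i, w i j) ^ 2 := by
  have h1 : ∀ j : Fin D, ∏ l ∈ univ.erase j, w j l
      = (∏ l ∈ Ioi j, w j l) * ∏ l ∈ Iio j, w j l := by
    intro j
    rw [← prod_union]
    · refine Finset.prod_congr ?_ fun _ _ => rfl
      ext l
      simp only [mem_erase, mem_univ, and_true, mem_union, mem_Ioi, mem_Iio]
      constructor
      · intro h; exact (lt_or_gt_of_ne h).symm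
      · rintro (h | h)
        · exact (ne_of_lt h).symm
        · exact ne_of_lt h
    · rw [disjoint_left]
      intro l h1 h2
      rw [mem_Ioi] at h1
      rw [mem_Iio] at h2
      exact lt_asymm h1 h2
  simp only [h1, prod_mul_distrib, sq]
  congr 1
  rw [Finset.prod_comm' (t' := univ) (s' := fun l => Ioi l)]
  · exact Finset.prod_congr rfl fun l _ => Finset.prod_congr rfl fun j _ => hw _ _
  · intro i j; simp

/-- `|det T| = |V|` -/
theorem norm_det_nodeT {D : ℕ} (a : Fin D → ℂ) (ha : Function.Injective a) :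
    ‖(nodeT a).det‖ = ‖(Matrix.vandermonde a).det‖ := by
  have h1 := congrArg norm (det_nodeT a)
  have h2 : ‖(Matrix.vandermonde a).det‖ = ∏ i, ∏ j ∈ Ioi i, ‖a i - a j‖ := by
    rw [det_vandermonde, norm_prod]
    refine Finset.prod_congr rfl fun i _ => ?_
    rw [norm_prod]
    exact Finset.prod_congr rfl fun j _ => norm_sub_rev _ _
  have h3 : ‖∏ j, ∏ l ∈ univ.erase j, (a j - a l)‖ = (∏ i, ∏ j ∈ Ioi i, ‖a i - a j‖) ^ 2 := by
    rw [← prod_pairs _ fun i j => norm_sub_rev _ _, norm_prod]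
    exact Finset.prod_congr rfl fun j _ => norm_prod _ _
  have h4 : ‖(Matrix.vandermonde a).det‖ ≠ 0 := by
    rw [norm_ne_zero_iff]
    exact det_vandermonde_ne_zero_iff.2 ha
  rw [h3, norm_mul, ← h2, sq] at h1
  exact mul_right_cancel₀ h4 h1

variable {β γ : Type*} [Fintype β] [LinearOrder β] [Fintype γ] [DecidableEq γ]
  {D : β → ℕ} {n : γ → ℕ}

/-- Taylor matrix: rows `x^k y^(D b - 1 - k) f`, columns: coefficients in the chart `g` -/
def tay (x y : γ → R⟦X⟧) (f : γ → β → R⟦X⟧) : Matrix (Σ g, Fin (n g)) (Σ b, Fin (D b)) R :=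
  Matrix.of fun i r => coeff (i.2 : ℕ)
    (x i.1 ^ (r.2 : ℕ) * y i.1 ^ (D r.1 - 1 - (r.2 : ℕ)) * f i.1 r.1)

/-- the transformed matrix -/
def nmat (x y : γ → R⟦X⟧) (f : γ → β → R⟦X⟧) (a : ∀ b, Fin (D b) → R)
    (H : (Σ g, Fin (n g)) → R⟦X⟧) : Matrix (Σ g, Fin (n g)) (Σ b, Fin (D b)) R :=
  Matrix.of fun i r => coeff (i.2 : ℕ)
    (H i * ((∏ l ∈ univ.erase r.2, (x i.1 - C (a r.1 l) * y i.1)) * f i.1 r.1))

/-- change of rows -/
def bigT (a : ∀ b, Fin (D b) → R) : Matrix (Σ b, Fin (D b)) (Σ b, Fin (D b)) R :=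
  Matrix.blockDiagonal' fun b => nodeT (a b)

/-- the triangular matrix of the functionals -/
def hmat (H : (Σ g, Fin (n g)) → R⟦X⟧) : Matrix (Σ g, Fin (n g)) (Σ g, Fin (n g)) R :=
  Matrix.of fun i i' => if i'.1 = i.1 ∧ (i'.2 : ℕ) ≤ i.2 then coeff ((i.2 : ℕ) - i'.2) (H i) else 0

theorem det_hmat (H : (Σ g, Fin (n g)) → R⟦X⟧) :
    (hmat H).det = ∏ i, constantCoeff (H i) := by
  rw [← det_transpose]
  have hB : ((hmat H)ᵀ).BlockTriangular fun i => (i.2 : ℕ) := by
    intro i j hij
    rw [transpose_apply]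
    unfold hmat
    rw [Matrix.of_apply, if_neg]
    rintro ⟨-, h⟩
    exact absurd hij (not_lt.2 h)
  rw [hB.det]
  have h1 : ∀ o ∈ univ.image fun i : Σ g, Fin (n g) => (i.2 : ℕ),
      (((hmat H)ᵀ).toSquareBlock (fun i => (i.2 : ℕ)) o).det
        = ∏ i ∈ univ.filter fun i : Σ g, Fin (n g) => (i.2 : ℕ) = o, constantCoeff (H i) := by
    intro o _
    have h2 : ((hmat H)ᵀ).toSquareBlock (fun i => (i.2 : ℕ)) o
        = Matrix.diagonal fun i : {i : Σ g, Fin (n g) // (i.2 : ℕ) = o} =>
            constantCoeff (H i) := by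
      ext i j
      rw [toSquareBlock_def, Matrix.of_apply, transpose_apply]
      unfold hmat
      rw [Matrix.of_apply]
      by_cases hij : i = j
      · subst hij
        simp
      · rw [diagonal_apply_ne _ hij, if_neg]
        rintro ⟨h3, -⟩
        apply hij
        obtain ⟨⟨g, i⟩, hi⟩ := i
        obtain ⟨⟨g', j⟩, hj⟩ := j
        simp only at h3 hi hj
        subst h3
        have : i = j := Fin.ext (hi.trans hj.symm)
        subst this
        rfl
    rw [h2, det_diagonal]
    have h3 : ∀ x : Σ g, Fin (n g), x ∈ (univ.filter fun i : Σ g, Fin (n g) => (i.2 : ℕ) = o)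
        ↔ (x.2 : ℕ) = o := fun x => by simp
    exact (Finset.prod_subtype (p := fun x : Σ g, Fin (n g) => (x.2 : ℕ) = o) _ h3
      fun i => constantCoeff (H i)).symm
  rw [Finset.prod_congr rfl h1]
  exact Finset.prod_fiberwise_of_maps_to (fun i _ => mem_image_of_mem _ (mem_univ i)) _

theorem coeff_mul_hmat (H : (Σ g, Fin (n g)) → R⟦X⟧) (G : γ → R⟦X⟧) (i : Σ g, Fin (n g)) :
    ∑ i', hmat H i i' * coeff (i'.2 : ℕ) (G i'.1) = coeff (i.2 : ℕ) (H i * G i.1) := by
  unfold hmat
  rw [Fintype.sum_sigma, Finset.sum_eq_single i.1]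
  · rw [mul_comm, coeff_mul, Finset.Nat.sum_antidiagonal_eq_sum_range_succ
      (fun p q => coeff p (G i.1) * coeff q (H i))]
    have h1 : ∀ o : Fin (n i.1), (Matrix.of fun i i' : Σ g, Fin (n g) =>
        if i'.1 = i.1 ∧ (i'.2 : ℕ) ≤ i.2 then coeff ((i.2 : ℕ) - i'.2) (H i) else 0) i ⟨i.1, o⟩
          * coeff (o : ℕ) (G i.1)
        = (fun k : ℕ => if k ≤ (i.2 : ℕ) then coeff k (G i.1) * coeff ((i.2 : ℕ) - k) (H i)
            else 0) o := by
      intro o
      simp only [Matrix.of_apply, true_and]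
      split_ifs
      · ring
      · ring
    rw [Finset.sum_congr rfl fun o _ => h1 o, Fin.sum_univ_eq_sum_range
      (fun k : ℕ => if k ≤ (i.2 : ℕ) then coeff k (G i.1) * coeff ((i.2 : ℕ) - k) (H i) else 0),
      ← Finset.sum_filter]
    refine Finset.sum_congr ?_ fun _ _ => rfl
    ext k
    simp only [mem_filter, mem_range]
    have := i.2.2
    omega
  · intro g _ hg
    refine Finset.sum_eq_zero fun o _ => ?_
    rw [Matrix.of_apply, if_neg (fun h => hg h.1), zero_mul]
  · intro h; exact absurd (mem_univ _) h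

/-- **factorisation** -/
theorem nmat_eq (x y : γ → R⟦X⟧) (f : γ → β → R⟦X⟧) (a : ∀ b, Fin (D b) → R)
    (H : (Σ g, Fin (n g)) → R⟦X⟧) :
    nmat x y f a H = hmat H * (tay (n := n) x y f * (bigT a)ᵀ :
      Matrix (Σ g, Fin (n g)) (Σ b, Fin (D b)) R) := by
  ext i r
  have h1 : ∀ i' : Σ g, Fin (n g),
      (tay (n := n) x y f * (bigT a)ᵀ : Matrix (Σ g, Fin (n g)) (Σ b, Fin (D b)) R) i' r
        = coeff (i'.2 : ℕ) ((fun g => (∏ l ∈ univ.erase r.2, (x g - C (a r.1 l) * y g))
            * f g r.1) i'.1) := by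
    intro i'
    rw [Matrix.mul_apply, Fintype.sum_sigma, Finset.sum_eq_single r.1]
    · have h2 := prod_hom (A := R⟦X⟧) (univ.erase r.2) (a r.1) (x i'.1) (y i'.1)
      have hc : (univ.erase r.2 : Finset (Fin (D r.1))).card + 1 = D r.1 := by
        rw [card_erase_of_mem (mem_univ _), card_univ, Fintype.card_fin]
        have := r.2.pos; omega
      have hc' : (univ.erase r.2 : Finset (Fin (D r.1))).card = D r.1 - 1 := by omega
      rw [hc, hc'] at h2
      have h3 : ∀ c : R, algebraMap R R⟦X⟧ c = C c := fun c => rfl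
      simp only [h3] at h2
      simp only []
      rw [h2, Finset.sum_mul, map_sum, Finset.sum_range]
      refine Finset.sum_congr rfl fun k _ => ?_
      rw [transpose_apply, bigT, blockDiagonal'_apply, dif_pos rfl]
      simp only [cast_eq]
      rw [mul_assoc (C _), coeff_C_mul, mul_comm]
      rfl
    · intro b _ hb
      refine Finset.sum_eq_zero fun k _ => ?_
      rw [transpose_apply, bigT, blockDiagonal'_apply, dif_neg (fun h => hb h.symm), mul_zero]
    · intro h; exact absurd (mem_univ _) h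
  rw [Matrix.mul_apply]
  simp only [h1]
  exact (coeff_mul_hmat H (fun g => (∏ l ∈ univ.erase r.2, (x g - C (a r.1 l) * y g))
    * f g r.1) i).symm

/-- product bound for determinants -/
theorem norm_det_le {ι : Type*} [Fintype ι] [DecidableEq ι] (M : Matrix ι ι ℂ) (c : ι → ℝ)
    (h : ∀ i j, ‖M i j‖ ≤ c i) : ‖M.det‖ ≤ (Fintype.card ι).factorial * ∏ i, c i := by
  rw [← det_transpose, det_apply]
  refine (norm_sum_le _ _).trans ?_
  have h1 : ∀ σ ∈ (univ : Finset (Equiv.Perm ι)),
      ‖Equiv.Perm.sign σ • ∏ i, Mᵀ (σ i) i‖ ≤ ∏ i, c i := by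
    intro σ _
    have h2 : ‖Equiv.Perm.sign σ • ∏ i, Mᵀ (σ i) i‖ = ‖∏ i, Mᵀ (σ i) i‖ := by
      rcases Int.units_eq_one_or (Equiv.Perm.sign σ) with h | h <;> simp [h]
    rw [h2, norm_prod]
    exact Finset.prod_le_prod (fun i _ => norm_nonneg _) fun i _ => by
      rw [transpose_apply]; exact h _ _
  refine (Finset.sum_le_card_nsmul _ _ _ h1).trans ?_
  rw [card_univ, Fintype.card_perm, nsmul_eq_mul]

/-- **ARCH, abstract form** -/
theorem arch (x y : γ → ℂ⟦X⟧) (f : γ → β → ℂ⟦X⟧) (a : ∀ b, Fin (D b) → ℂ)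
    (ha : ∀ b, Function.Injective (a b)) (H : (Σ g, Fin (n g)) → ℂ⟦X⟧)
    (e : (Σ b, Fin (D b)) ≃ (Σ g, Fin (n g))) (c : (Σ g, Fin (n g)) → ℝ)
    (hc : ∀ i r, ‖nmat x y f a H i r‖ ≤ c i) :
    ‖((tay x y f).submatrix e id : Matrix (Σ b, Fin (D b)) (Σ b, Fin (D b)) ℂ).det‖
        * (∏ b, ‖(Matrix.vandermonde (a b)).det‖) * ∏ i, ‖constantCoeff (H i)‖
      ≤ (∑ b, D b).factorial * ∏ i, c i := by
  have h1 : (nmat x y f a H).submatrix e id
      = (hmat H).submatrix e e * ((tay x y f).submatrix e id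
          * (bigT a)ᵀ) := by
    rw [nmat_eq]
    ext i r
    simp only [submatrix_apply, Matrix.mul_apply, id]
    exact (Equiv.sum_comp e fun j => hmat H (e i) j * ∑ k, tay x y f j k
      * (bigT a)ᵀ k r).symm
  have h2 := congrArg norm (congrArg Matrix.det h1)
  rw [det_mul, det_mul, det_transpose, bigT, det_bd, det_submatrix_equiv_self, det_hmat, norm_mul,
    norm_mul, norm_prod, norm_prod] at h2
  have h3 : ∏ b, ‖(nodeT (a b)).det‖ = ∏ b, ‖(Matrix.vandermonde (a b)).det‖ :=
    Finset.prod_congr rfl fun b _ => norm_det_nodeT _ (ha b)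
  rw [h3] at h2
  have h4 := norm_det_le ((nmat x y f a H).submatrix e id) (fun r => c (e r))
    fun i r => hc _ _
  rw [h2, Equiv.prod_comp e c, Fintype.card_sigma] at h4
  simp only [Fintype.card_fin] at h4
  calc _ = (∏ i, ‖constantCoeff (H i)‖) * (‖((tay x y f).submatrix e id).det‖
        * ∏ b, ‖(Matrix.vandermonde (a b)).det‖) := by ring
    _ ≤ _ := h4

end Vale.Agent.P030.H676
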